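import Vale.Agent.P088.H442.C.Defs

/-!
# P088, Theorem C, row C_GA: the gauge at level `X` (assembly)
-/

open MeasureTheory Set
open scoped ContDiff Matrix

noncomputable section

namespace Vale.Agent.P088.LR.CC.H738

open CF

variable {n : ℕ}

theorem cl_mono {F : Type*} [NormedAddCommGroup F] [NormedSpace ℝ F] {k l : ℕ} {a b : ℝ}
    {f : V n → F} (h : Cl k a f) (hl : l ≤ k) (hab : a ≤ b) : Cl l b f :=
  fun m hm x => (h m (hm.trans hl) x).trans hab

theorem bal_cube {x : V n} (hx : x ∈ bal n) : x ∈ cube n := by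
  intro j
  have h1 : (x j - 1 / 2) ^ 2 ≤ 1 / 16 :=
    (Finset.single_le_sum (f := fun j => (x j - 1 / 2) ^ 2) (fun _ _ => sq_nonneg _)
      (Finset.mem_univ j)).trans hx
  constructor <;> nlinarith

theorem K_cube {Ω : Set (V n)} {w K : V n → V n} (hD : Dif Ω w K) (hΩ : Ω ⊆ bal n) {y : V n}
    (hy : y ∈ cube n) : K y ∈ cube n := by
  by_cases h : K y ∈ Ω
  · exact bal_cube (hΩ h)
  · have h1 := hD.z _ h
    have h2 := hD.r y
    rw [h1, add_zero] at h2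
    rw [h2]; exact hy

/-- (C_GA) the gauge at level `X`. -/
theorem ga (hBA : RowBAC) (hGW : RowGWC) (hPH : RowPHC) (hPS : RowPSC) (hCV : RowCVC) :
    RowGAC := by
  intro n M
  refine ⟨(M + 3 + n + 1) + 1, ?_⟩
  intro φ q₀ hφ jj hjj
  obtain ⟨CB, hCB, HB⟩ := hBA.2.2.2 n (M + 3 + n + 1) φ q₀ hφ
  obtain ⟨C₁, ε₀, hC₁, hε₀, HP⟩ := hPH n (M + 1)
  obtain ⟨C₂, hC₂, HG⟩ := hGW n (M + 3) φ q₀ hφ
  obtain ⟨C₃, hC₃, HS⟩ := hPS n M φ q₀ hφ C₁
  set A : ℝ := C₁ * (C₂ * CB) with hA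
  have hA1 : 1 ≤ A := by
    rw [hA]; nlinarith [mul_nonneg (sub_nonneg.2 hC₂) (sub_nonneg.2 hCB),
      mul_le_mul hC₂ hCB zero_le_one (by linarith : (0 : ℝ) ≤ C₂)]
  have hCBp : 0 < CB := by linarith
  have hC₂p : 0 < C₂ := by linarith
  have hC₃p : 0 < C₃ := by linarith
  have hAp : 0 < A := by linarith
  refine ⟨1 + C₂ + C₂ / ε₀ + C₂ * CB + C₃ * A, ?_, ?_⟩
  · have := div_pos hC₂p hε₀
    have := mul_pos hC₂p hCBp
    have := mul_pos hC₃p hAp
    linarith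
  intro X hX Ω t q hB a ha hent hCXa
  have q1 := div_pos hC₂p hε₀
  have q2 := mul_pos hC₂p hCBp
  have q3 := mul_pos hC₃p hAp
  have hX1 : 1 ≤ X := by linarith
  have hXp : 0 < X := by linarith
  have hXa : 0 ≤ X * a := mul_nonneg hXp.le ha
  have hsz : Sz (M + 3 + n + 1) (CB * a) t q₀ q := HB Ω t q hB a ha hent
  have hk1 : C₂ * X * (CB * a) ≤ 1 := by
    have : C₂ * X * (CB * a) = (C₂ * CB) * (X * a) := by ring
    rw [this]
    refine le_trans ?_ ((mul_assoc _ X a).symm.le.trans hCXa)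
    exact mul_le_mul_of_nonneg_right (by linarith) hXa
  obtain ⟨c₀, c, u₀, u, w₁, w₂, hs₀, hs, hoff, hw₁, hw₂, hw12, hcl₁, hcl₂, hcl, hu₀, hu⟩ :=
    HG X (by linarith) jj hjj Ω t q hB (CB * a) (mul_nonneg hCBp.le ha) hsz hk1
  have hsm : C₂ / X ≤ ε₀ := by
    rw [div_le_iff₀ hXp]
    have : C₂ / ε₀ ≤ X := by linarith
    rw [div_le_iff₀ hε₀] at this
    linarith
  obtain ⟨w, K, hD, hlin, hid, hcomp⟩ := HP Ω w₁ w₂ hw₁ hw₂ hw12
    (cl_mono hcl₁ (by omega) hsm) (cl_mono hcl₂ (by omega) hsm)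
  have hw : Cl (M + 1) (A * a) w := by
    have h1 := hlin (C₂ * (CB * a)) (cl_mono hcl (by omega) le_rfl)
    exact cl_mono h1 le_rfl (by rw [hA]; exact le_of_eq (by ring))
  have hAa : 0 ≤ A * a := mul_nonneg hAp.le ha
  have hk2 : C₃ * (A * a) ≤ 1 := by
    have h1 : C₃ * (A * a) ≤ (C₃ * A) * (X * a) := by
      have : C₃ * (A * a) = (C₃ * A) * a := by ring
      rw [this]
      exact mul_le_mul_of_nonneg_left (le_mul_of_one_le_left ha hX1) q3.le
    refine h1.trans (le_trans ?_ ((mul_assoc _ X a).symm.le.trans hCXa))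
    exact mul_le_mul_of_nonneg_right (by linarith) hXa
  obtain ⟨t', q', hB', hpsh, hcl'⟩ := HS Ω t q hB w K hD
    (fun f hf η hη => hcomp M (by omega) f hf η hη) (A * a) hAa hk2
    (fun i j => cl_mono (hent i j) (by omega) (le_mul_of_one_le_left ha hA1)) hw
  refine ⟨w, K, t', q', hD, hpsh, hB', ?_, ?_⟩
  · intro i j
    refine cl_mono (hcl' i j) le_rfl ?_
    have : C₃ * (A * a) = (C₃ * A) * a := by ring
    rw [this]
    exact mul_le_mul_of_nonneg_right (by linarith) ha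
  · intro i
    obtain ⟨c', u', hs', hu'⟩ := hCV Ω φ q₀ t t' q q' hB hB' w K hD hpsh i
      (zs 1 i (xg jj X i)) (c₀ i) (c i) (u₀ i) (u i) (hs₀ i) (hs i) (hoff i)
    refine ⟨c₀ i, c', u₀ i, u', hs₀ i, hs', ?_⟩
    intro y hy
    have hKy := K_cube hD hB.sub hy
    have hp1 := hφ.p.2 y
    have hp2 := hφ.p.2 (K y)
    have hidy : y i + w₁ y i = K y i + w₂ (K y) i := by
      have h1 := hid (K y)
      rw [hD.r y] at h1
      have := congrFun h1 i
      simpa using this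
    rw [hu' y hy, hu₀ i y, norm_mul, norm_div, hu i (K y) hKy, hidy]
    rw [Complex.norm_real, Complex.norm_real, Real.norm_of_nonneg hp1.le,
      Real.norm_of_nonneg hp2.le]
    field_simp

end Vale.Agent.P088.LR.CC.H738
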