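import Vale.Agent.P088.H833.D.Defs
import Vale.Agent.P088.H442.C.Top

/-!
# P088, Theorem D, row D_TOP: interpolation and Theorem C (assembly 2)
-/

open MeasureTheory Set
open scoped ContDiff Matrix

noncomputable section

namespace Vale.Agent.P088.LR.CD.H738

open CF CC

variable {n : ℕ}

theorem cl_mono {F : Type*} [NormedAddCommGroup F] [NormedSpace ℝ F] {k l : ℕ} {a b : ℝ}
    {f : V n → F} (h : Cl k a f) (hl : l ≤ k) (hab : a ≤ b) : Cl l b f :=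
  fun m hm x => (h m (hm.trans hl) x).trans hab

theorem cl_cx {k : ℕ} {a : ℝ} {f : V n → ℝ} (hf : ContDiff ℝ ∞ f) :
    Cl k a (cx f) ↔ Cl k a f := by
  have h2 : cx f = Complex.ofRealLI ∘ f := rfl
  have h3 : ∀ l : ℕ, ∀ x, ‖iteratedFDeriv ℝ l (cx f) x‖ = ‖iteratedFDeriv ℝ l f x‖ := by
    intro l x
    have h1 : ContDiff ℝ l f := hf.of_le (by exact_mod_cast le_top)
    rw [h2, Complex.ofRealLI.norm_iteratedFDeriv_comp_left h1.contDiffAt le_rfl]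
  constructor
  · intro h l hl x
    rw [← h3]; exact h l hl x
  · intro h l hl x
    rw [h3]; exact h l hl x

theorem cl_smul {F : Type*} [NormedAddCommGroup F] [NormedSpace ℝ F] {k : ℕ} {a : ℝ}
    {f : V n → F} (hf : ContDiff ℝ ∞ f) (c : ℝ) (hc : 0 ≤ c) (h : Cl k a f) :
    Cl k (c * a) (fun x => c • f x) := by
  intro l hl x
  have h1 : ContDiff ℝ l f := hf.of_le (by exact_mod_cast le_top)
  have h2 : (fun x => c • f x) = c • f := rfl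
  rw [h2, iteratedFDeriv_const_smul_apply h1.contDiffAt, norm_smul, Real.norm_of_nonneg hc]
  exact mul_le_mul_of_nonneg_left (h l hl x) hc

theorem cl_add {F : Type*} [NormedAddCommGroup F] [NormedSpace ℝ F] {k : ℕ} {a b : ℝ}
    {f g : V n → F} (hf : ContDiff ℝ ∞ f) (hg : ContDiff ℝ ∞ g) (h : Cl k a f) (h' : Cl k b g) :
    Cl k (a + b) (fun x => f x + g x) := by
  intro l hl x
  have h1 : ContDiff ℝ l f := hf.of_le (by exact_mod_cast le_top)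
  have h2 : ContDiff ℝ l g := hg.of_le (by exact_mod_cast le_top)
  have h3 : (fun x => f x + g x) = f + g := rfl
  rw [h3, iteratedFDeriv_add_apply h1.contDiffAt h2.contDiffAt]
  exact (norm_add_le _ _).trans (add_le_add (h l hl x) (h' l hl x))

theorem cl_neg {F : Type*} [NormedAddCommGroup F] [NormedSpace ℝ F] {k : ℕ} {a : ℝ}
    {f : V n → F} (h : Cl k a f) : Cl k a (fun x => -f x) := by
  intro l hl x
  have h3 : (fun x => -f x) = -f := rfl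
  rw [h3, iteratedFDeriv_neg_apply, norm_neg]
  exact h l hl x

theorem exists_cl {f : V n → ℝ} (hf : ContDiff ℝ ∞ f) (c : ℝ) (h1 : ∀ x ∉ bal n, f x = c)
    (k : ℕ) : ∃ B : ℝ, 1 ≤ B ∧ Cl k B f := by
  have hcpt : IsCompact (bal n) := by
    have hcl : IsClosed (bal n) := by
      refine isClosed_le (f := fun x : V n => ∑ j, (x j - 1 / 2) ^ 2) (by fun_prop)
        continuous_const
    refine Metric.isCompact_of_isClosed_isBounded hcl ?_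
    refine (Metric.isBounded_Icc (fun _ : Fin n => (1 / 4 : ℝ)) (fun _ => 3 / 4)).subset
      fun x hx => ?_
    have h2 := bal_subset_core442 hx
    exact ⟨fun j => (h2 j).1, fun j => (h2 j).2⟩
  have hex : ∀ l : ℕ, ∃ B : ℝ, ∀ x, ‖iteratedFDeriv ℝ l (fun x => f x - c) x‖ ≤ B := by
    intro l
    have hg : ContDiff ℝ ∞ (fun x => f x - c) := hf.sub contDiff_const
    have hc : HasCompactSupport (fun x => f x - c) := by
      refine HasCompactSupport.intro hcpt fun x hx => ?_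
      rw [h1 x hx, sub_self]
    have hct : Continuous (iteratedFDeriv ℝ l (fun x => f x - c)) :=
      hg.continuous_iteratedFDeriv (by exact_mod_cast le_top)
    obtain ⟨B, hB⟩ := (hct.norm).bounded_above_of_compact_support
      ((hc.iteratedFDeriv l).norm)
    exact ⟨B, fun x => by simpa using hB x⟩
  choose B hB using hex
  refine ⟨1 + |c| + ∑ l ∈ Finset.range (k + 1), |B l|, ?_, fun l hl x => ?_⟩
  · have := Finset.sum_nonneg (fun l (_ : l ∈ Finset.range (k + 1)) => abs_nonneg (B l))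
    linarith [abs_nonneg c]
  have hle : |B l| ≤ ∑ l ∈ Finset.range (k + 1), |B l| :=
    Finset.single_le_sum (f := fun l => |B l|) (fun _ _ => abs_nonneg _)
      (Finset.mem_range.2 (by omega))
  have hdec : f = (fun x => f x - c) + fun _ => c := by
    funext x
    simp
  have h2 : ContDiff ℝ l (fun x => f x - c) :=
    (hf.sub contDiff_const).of_le (by exact_mod_cast le_top)
  rw [hdec, iteratedFDeriv_add_apply h2.contDiffAt contDiff_const.contDiffAt]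
  have h3 : ‖iteratedFDeriv ℝ l (fun _ : V n => c) x‖ ≤ |c| := by
    rcases Nat.eq_zero_or_pos l with h | h
    · subst h
      simp
    · rw [iteratedFDeriv_const_of_ne (by omega)]
      simp
  calc _ ≤ ‖iteratedFDeriv ℝ l (fun x => f x - c) x‖
        + ‖iteratedFDeriv ℝ l (fun _ : V n => c) x‖ := norm_add_le _ _
    _ ≤ B l + |c| := add_le_add (hB l x) h3
    _ ≤ _ := by linarith [le_abs_self (B l)]

/-- Interpolation with any bound of the high derivatives. -/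
theorem interp (hIN : RowINC) (n m : ℕ) : ∃ M : ℕ, ∀ B : ℝ, 1 ≤ B → ∀ η : ℝ, 0 < η →
    ∃ ε > 0, ∀ f : V n → ℂ, ContDiff ℝ ∞ f → (∀ x ∉ core n, f x = 0) → (∀ x, ‖f x‖ ≤ ε) →
    Cl M B f → Cl m η f := by
  obtain ⟨M, C, hC, H⟩ := hIN n m
  refine ⟨M, fun B hB η hη => ?_⟩
  have hB0 : 0 < B := by linarith
  have hC0 : 0 < C := by linarith
  have hBC : 0 < B * C := mul_pos hB0 hC0
  refine ⟨B * min 1 ((η / (B * C)) ^ 2), by positivity, ?_⟩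
  intro f hf h0 hs hM
  set a : ℝ := min 1 ((η / (B * C)) ^ 2) with ha
  have ha0 : 0 ≤ a := by positivity
  have ha1 : a ≤ 1 := min_le_left _ _
  have hg : ContDiff ℝ ∞ (fun x => (B⁻¹ : ℝ) • f x) :=
    (contDiff_const_smul (B⁻¹ : ℝ)).comp hf
  have hg1 : Cl M 1 (fun x => (B⁻¹ : ℝ) • f x) := by
    have := cl_smul hf B⁻¹ (by positivity) hM
    rwa [inv_mul_cancel₀ hB0.ne'] at this
  have hg0 : Cl 0 a (fun x => (B⁻¹ : ℝ) • f x) := by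
    intro l hl x
    obtain rfl : l = 0 := by omega
    rw [norm_iteratedFDeriv_zero, norm_smul, Real.norm_of_nonneg (by positivity : 0 ≤ B⁻¹)]
    calc B⁻¹ * ‖f x‖ ≤ B⁻¹ * (B * a) := mul_le_mul_of_nonneg_left (hs x) (by positivity)
      _ = a := by field_simp
  have h1 := H (fun x => (B⁻¹ : ℝ) • f x) hg (fun x hx => by rw [h0 x hx, smul_zero]) a ha0 ha1
    hg0 hg1
  have h2 := cl_smul hg B hB0.le h1
  have h3 : (fun x => B • (B⁻¹ : ℝ) • f x) = f := by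
    funext x
    rw [smul_smul, mul_inv_cancel₀ hB0.ne', one_smul]
  rw [h3] at h2
  refine cl_mono h2 le_rfl ?_
  have h4 : √a ≤ η / (B * C) := by
    rw [ha]
    refine (Real.sqrt_le_sqrt (min_le_right _ _)).trans ?_
    rw [Real.sqrt_sq (by positivity)]
  calc B * (C * √a) ≤ B * (C * (η / (B * C))) := by gcongr
    _ = η := by field_simp

/-- The tensor `φ₂² t` is near `φ² 1` in `C^k`. -/
theorem scl {k : ℕ} {B₁ Bφ δ₁ δ₂ : ℝ} {φ φ₂ : V n → ℝ} {t : MF n} (hφ : SmP φ) (hφ₂ : SmP φ₂)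
    (ht : SmM t) (hφk : Cl k B₁ φ₂) (hφ0k : Cl k Bφ φ) (hdcl : Cl k δ₂ (fun x => φ₂ x + -φ x))
    (i j : Fin n) (hent : Cl k δ₁ (ent t i j)) :
    Cl k (2 ^ k * (2 ^ k * (B₁ * B₁) * δ₁) + 2 ^ k * (δ₂ * (B₁ + Bφ)))
      (fun x => (φ₂ x ^ 2 • t x) i j - sc (fun x => φ x ^ 2) x i j) := by
  have he : (fun x => (φ₂ x ^ 2 • t x) i j - sc (fun x => φ x ^ 2) x i j)
      = fun x => (φ₂ x * φ₂ x) * (t x i j - (1 : Matrix (Fin n) (Fin n) ℝ) i j)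
        + (1 : Matrix (Fin n) (Fin n) ℝ) i j • ((φ₂ x + -φ x) * (φ₂ x + φ x)) := by
    funext x
    simp only [sc, Matrix.smul_apply, smul_eq_mul]
    ring
  have hdsm : ContDiff ℝ ∞ (fun x => φ₂ x + -φ x) := hφ₂.1.add hφ.1.neg
  have hssm : ContDiff ℝ ∞ (fun x => φ₂ x + φ x) := hφ₂.1.add hφ.1
  have hts : ContDiff ℝ ∞ (fun x => t x i j - (1 : Matrix (Fin n) (Fin n) ℝ) i j) :=
    (ht i j).sub contDiff_const
  have htk : Cl k δ₁ (fun x => t x i j - (1 : Matrix (Fin n) (Fin n) ℝ) i j) :=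
    (cl_cx hts).1 hent
  have hpp : ContDiff ℝ ∞ (fun x => φ₂ x * φ₂ x) := hφ₂.1.mul hφ₂.1
  have h1 := cl_mul442 hpp hts (cl_mul442 hφ₂.1 hφ₂.1 hφk hφk) htk
  have h2 := cl_mul442 hdsm hssm hdcl (cl_add hφ₂.1 hφ.1 hφk hφ0k)
  have h01 : (0 : ℝ) ≤ (1 : Matrix (Fin n) (Fin n) ℝ) i j ∧
      (1 : Matrix (Fin n) (Fin n) ℝ) i j ≤ 1 := by
    rw [Matrix.one_apply]
    split_ifs <;> norm_num
  have hds : ContDiff ℝ ∞ (fun x => (φ₂ x + -φ x) * (φ₂ x + φ x)) := hdsm.mul hssm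
  have h3 := cl_smul hds _ h01.1 h2
  have hA : ContDiff ℝ ∞ (fun x => (φ₂ x * φ₂ x) * (t x i j - (1 : Matrix (Fin n) (Fin n) ℝ) i j)) :=
    hpp.mul hts
  have hB : ContDiff ℝ ∞
      (fun x => (1 : Matrix (Fin n) (Fin n) ℝ) i j • ((φ₂ x + -φ x) * (φ₂ x + φ x))) :=
    (contDiff_const_smul ((1 : Matrix (Fin n) (Fin n) ℝ) i j)).comp hds
  have h4 := cl_add hA hB h1 h3
  have h0 : 0 ≤ 2 ^ k * (δ₂ * (B₁ + Bφ)) :=
    (norm_nonneg _).trans (h2 0 (Nat.zero_le _) 0)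
  have e3 : (1 : Matrix (Fin n) (Fin n) ℝ) i j * (2 ^ k * (δ₂ * (B₁ + Bφ)))
      ≤ 2 ^ k * (δ₂ * (B₁ + Bφ)) := mul_le_of_le_one_left h0 h01.2
  rw [he]
  exact cl_mono h4 le_rfl (by linarith)

/-- The difference of the factors is small in `C^m`. -/
theorem dcl {M m : ℕ} {B₁ Bφ η δ : ℝ} {Ω : Set (V n)} {φ φ₂ : V n → ℝ} (hφ : SmP φ)
    (hφ₂ : SmP φ₂) (hsub : Ω ⊆ bal n) (hoff : ∀ x ∉ Ω, φ₂ x = φ x)
    (H : ∀ f : V n → ℂ, ContDiff ℝ ∞ f → (∀ x ∉ core n, f x = 0) → (∀ x, ‖f x‖ ≤ η) →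
      Cl M (B₁ + Bφ) f → Cl m δ f) (h1 : Cl M B₁ φ₂) (h2 : Cl M Bφ φ)
    (hd : ∀ x, |φ₂ x - φ x| ≤ η) : Cl m δ (fun x => φ₂ x + -φ x) := by
  have hdsm : ContDiff ℝ ∞ (fun x => φ₂ x + -φ x) := hφ₂.1.add hφ.1.neg
  have h3 : Cl M (B₁ + Bφ) (cx fun x => φ₂ x + -φ x) :=
    (cl_cx hdsm).2 (cl_add hφ₂.1 hφ.1.neg h1 (cl_neg h2))
  have hsm : ContDiff ℝ ∞ (cx fun x => φ₂ x + -φ x) := Complex.ofRealCLM.contDiff.comp hdsm
  refine (cl_cx hdsm).1 (H _ hsm (fun x hx => ?_) (fun x => ?_) h3)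
  · have hx1 : x ∉ Ω := fun h => hx (bal_subset_core442 (hsub h))
    have : φ₂ x + -φ x = 0 := by rw [hoff x hx1]; ring
    show ((φ₂ x + -φ x : ℝ) : ℂ) = 0
    rw [this, Complex.ofReal_zero]
  · show ‖((φ₂ x + -φ x : ℝ) : ℂ)‖ ≤ η
    rw [Complex.norm_real, Real.norm_eq_abs, ← sub_eq_add_neg]
    exact hd x

/-- (D_TOP). -/
theorem topD (hTOP : RowTOP) (hSM : RowSMD) (hBA : RowBAC) (hIN : RowINC) : RowTOPD := by
  intro n hn
  obtain ⟨kC, hC⟩ := hTOP n hn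
  obtain ⟨kS, hS⟩ := hSM n hn
  obtain ⟨M, hM⟩ := interp hIN n (max kC kS)
  obtain ⟨k, hk⟩ : ∃ k, k = max (max kC kS) M := ⟨_, rfl⟩
  have hkM : M ≤ k := hk ▸ le_max_right _ _
  have hkC : kC ≤ k := hk ▸ (le_max_left _ _).trans (le_max_left _ _)
  have hkS : kS ≤ k := hk ▸ (le_max_right _ _).trans (le_max_left _ _)
  refine ⟨k, ?_⟩
  intro φ hφ hφ1 B
  obtain ⟨q₀, hba⟩ := hBA.1 φ hφ hφ1
  obtain ⟨εC, hεC, HC⟩ := hC φ hφ hφ1
  obtain ⟨Bφ, hBφ1, hBφ⟩ := exists_cl hφ.1 1 hφ1 k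
  -- constants
  obtain ⟨B₁, hB₁⟩ : ∃ B₁, B₁ = max B 1 := ⟨_, rfl⟩
  have hB₁1 : 1 ≤ B₁ := hB₁ ▸ le_max_right _ _
  have hBB₁ : B ≤ B₁ := hB₁ ▸ le_max_left _ _
  have hB₁0 : 0 < B₁ := by linarith
  have hBφ0 : 0 < Bφ := by linarith
  obtain ⟨δ₂, hδ₂⟩ : ∃ δ₂, δ₂ = εC / (2 * (2 ^ kC * (B₁ + Bφ))) := ⟨_, rfl⟩
  have hδ₂0 : 0 < δ₂ := by rw [hδ₂]; positivity
  obtain ⟨δ₁, hδ₁⟩ : ∃ δ₁, δ₁ = εC / (2 * (2 ^ kC * (2 ^ kC * (B₁ * B₁)))) := ⟨_, rfl⟩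
  have hδ₁0 : 0 < δ₁ := by rw [hδ₁]; positivity
  have e1 : 2 ^ kC * (2 ^ kC * (B₁ * B₁) * δ₁) = εC / 2 := by
    rw [hδ₁]; field_simp
  have e2 : 2 ^ kC * (δ₂ * (B₁ + Bφ)) = εC / 2 := by
    rw [hδ₂]; field_simp
  obtain ⟨η, hη0, Hη⟩ := hM (B₁ + Bφ) (by linarith) δ₂ hδ₂0
  obtain ⟨εS, hεS, HS⟩ := hS φ q₀ hba B η hη0
  obtain ⟨ε, hε0, Hε⟩ := hM B₁ hB₁1 (min δ₁ εS) (lt_min hδ₁0 hεS)
  refine ⟨ε, hε0, ?_⟩
  intro Ω hΩ hreg hsub φ₂ t hφ₂ ht hsy hoff₂ hoff hclφ hinv hclt hsup hst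
  obtain ⟨q, hq, hqe⟩ := hBA.2.1 φ₂ hφ₂ t ht
  have hB2 : B2 Ω φ q₀ φ₂ t q :=
    ⟨hba, hΩ, hreg, hsub, hφ₂, hoff₂, ht, hsy, hoff, hq, hqe, hst⟩
  have hent0 : ∀ i j, ∀ x ∉ core n, ent t i j x = 0 := by
    intro i j x hx
    unfold ent
    rw [hoff x fun h => hx (bal_subset_core442 (hsub h)), sub_self, Complex.ofReal_zero]
  have hentm : ∀ i j, Cl (max kC kS) (min δ₁ εS) (ent t i j) := fun i j =>
    Hε _ (ent_smooth442 ht i j) (hent0 i j) (hsup i j) (cl_mono (hclt i j) hkM hBB₁)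
  have hdiff : ∀ x, |φ₂ x - φ x| ≤ η :=
    HS Ω φ₂ t q hB2 (cl_mono hclφ hkS le_rfl) hinv
      (fun i j => cl_mono (hentm i j) (le_max_right _ _) (min_le_right _ _))
  have hφ₂c : Cl k B₁ φ₂ := cl_mono ((cl_cx hφ₂.1).1 hclφ) le_rfl hBB₁
  have hdcl : Cl (max kC kS) δ₂ (fun x => φ₂ x + -φ x) :=
    dcl hφ hφ₂ hsub hoff₂ Hη (cl_mono hφ₂c hkM le_rfl) (cl_mono hBφ hkM le_rfl) hdiff
  have hssm : SmM (fun x => φ₂ x ^ 2 • t x) := fun i j => (hφ₂.1.pow 2).mul (ht i j)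
  have hssy : ∀ x, (φ₂ x ^ 2 • t x).IsSymm := fun x => (hsy x).smul _
  have hsoff : ∀ x ∉ Ω, φ₂ x ^ 2 • t x = sc (fun x => φ x ^ 2) x := fun x hx => by
    rw [hoff x hx, hoff₂ x hx]; rfl
  have hscl : ∀ i j, Cl kC εC (fun x => (φ₂ x ^ 2 • t x) i j - sc (fun x => φ x ^ 2) x i j) := by
    intro i j
    refine cl_mono (scl hφ hφ₂ ht (cl_mono hφ₂c hkC le_rfl) (cl_mono hBφ hkC le_rfl)
      (cl_mono hdcl (le_max_left _ _) le_rfl) i j
      (cl_mono (hentm i j) (le_max_left _ _) (min_le_left _ _))) le_rfl ?_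
    linarith
  exact HC Ω hΩ hreg hsub (fun x => φ₂ x ^ 2 • t x) hssm hssy hsoff hscl hst

end Vale.Agent.P088.LR.CD.H738
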