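import Vale.Agent.P088.H599.J.Defs
import Vale.Agent.P088.H442.CFAsm

/-!
# P088, theorem J (all `N`), row U_RIG: assembly of the joint rigidity
-/

open MeasureTheory Set
open scoped ContDiff Matrix

noncomputable section

namespace Vale.Agent.P088.LR.U

open CF H158

variable {n N : ℕ}

theorem ex_small738 (l : List (ℝ × ℝ)) (h : ∀ p ∈ l, 0 < p.2) :
    ∃ δ : ℝ, 0 < δ ∧ ∀ p ∈ l, p.1 * δ ≤ p.2 := by
  induction l with
  | nil => exact ⟨1, one_pos, fun p hp => by simp at hp⟩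
  | cons p l ih =>
    obtain ⟨δ, hδ, hl⟩ := ih fun q hq => h q (List.mem_cons_of_mem _ hq)
    have hp := h p List.mem_cons_self
    have hm : 0 < max p.1 1 := lt_of_lt_of_le one_pos (le_max_right _ _)
    have hq : 0 < p.2 / max p.1 1 := by positivity
    refine ⟨min δ (p.2 / max p.1 1), lt_min hδ hq, fun q hqm => ?_⟩
    rcases List.mem_cons.1 hqm with rfl | hql
    · rcases le_total 0 q.1 with h0 | h0
      · calc q.1 * min δ (q.2 / max q.1 1) ≤ max q.1 1 * (q.2 / max q.1 1) :=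
              mul_le_mul (le_max_left _ _) (min_le_right _ _) (lt_min hδ hq).le hm.le
          _ = q.2 := by field_simp
      · exact (mul_nonpos_of_nonpos_of_nonneg h0 (lt_min hδ hq).le).trans hp.le
    · rcases le_total 0 q.1 with h0 | h0
      · exact (mul_le_mul_of_nonneg_left (min_le_left _ _) h0).trans (hl q hql)
      · exact (mul_nonpos_of_nonpos_of_nonneg h0 (lt_min hδ hq).le).trans
          (h q (List.mem_cons_of_mem _ hql)).le

theorem pdm_comp738 {w : V n → V n} (hw : ContDiff ℝ ∞ w) {P : MC n N} (hP : SmC P) (i : Fin n)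
    (x : V n) : pdm i (fun x => P (x + w x)) x =
      ∑ j, ((jm w x j i : ℝ) : ℂ) • pdm j P (x + w x) := by
  ext a b
  rw [Matrix.sum_apply]
  simp only [pdm, Matrix.of_apply, Matrix.smul_apply, smul_eq_mul]
  exact pd_comp hw (dfa (hP a b) _) i

theorem HK738 {Ω : Set (V n)} {w K : V n → V n} (D : Dif Ω w K) (x : V n) (i l : Fin n) :
    ∑ j, ((jm w x j i : ℝ) : ℂ) * ((pd j K (x + w x) l : ℝ) : ℂ) =
      if l = i then 1 else 0 := by
  have hK : ∀ y, DifferentiableAt ℝ K y := fun y => D.sK.differentiable (by simp) y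
  have h1 : ∀ j y, pd j (fun y => ((K y l : ℝ) : ℂ)) y = ((pd j K y l : ℝ) : ℂ) := by
    intro j y
    exact pd_clm (Complex.ofRealCLM ∘L
      (ContinuousLinearMap.proj (R := ℝ) (φ := fun _ : Fin n => ℝ) l)) (hK y) j
  have h2 : DifferentiableAt ℝ (fun y => ((K y l : ℝ) : ℂ)) (x + w x) :=
    ((Complex.ofRealCLM ∘L
      (ContinuousLinearMap.proj (R := ℝ) (φ := fun _ : Fin n => ℝ) l)).differentiableAt).comp _
      (hK (x + w x))
  have h3 := pd_comp D.sw h2 i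
  have h4 : (fun x => (fun y => ((K y l : ℝ) : ℂ)) (x + w x)) = fun x : V n => ((x l : ℝ) : ℂ) := by
    funext y
    show ((K (y + w y) l : ℝ) : ℂ) = _
    rw [D.l]
  rw [h4] at h3
  have h5 : pd i (fun x : V n => ((x l : ℝ) : ℂ)) x = if l = i then 1 else 0 := by
    have h6 := pd_clm (Complex.ofRealCLM ∘L
      (ContinuousLinearMap.proj (R := ℝ) (φ := fun _ : Fin n => ℝ) l))
      (differentiableAt_id (𝕜 := ℝ) (x := x)) i
    refine Eq.trans h6 ?_
    unfold pd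
    rw [fderiv_id]
    show (((Pi.single i (1 : ℝ) : V n) l : ℝ) : ℂ) = _
    rw [Pi.single_apply]
    split_ifs <;> simp
  rw [h5] at h3
  rw [h3]
  exact Finset.sum_congr rfl fun j _ => by rw [h1]

theorem pfo_back738 {Ω : Set (V n)} {w K : V n → V n} (D : Dif Ω w K) (A : Cn n N) (i : Fin n)
    (x : V n) : A i x = ∑ j, ((jm w x j i : ℝ) : ℂ) • pfo A K j (x + w x) := by
  have h1 : ∀ j, pfo A K j (x + w x) = ∑ l, ((pd j K (x + w x) l : ℝ) : ℂ) • A l x := by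
    intro j
    unfold pfo
    rw [D.l]
  simp only [h1, Finset.smul_sum, smul_smul]
  rw [Finset.sum_comm]
  have h2 : ∀ l, ∑ j, (((jm w x j i : ℝ) : ℂ) * ((pd j K (x + w x) l : ℝ) : ℂ)) • A l x =
      (if l = i then (1 : ℂ) else 0) • A l x := by
    intro l
    rw [← Finset.sum_smul, HK738 D x i l]
  rw [Finset.sum_congr rfl fun l _ => h2 l]
  simp

theorem gauge_back738 {Ω : Set (V n)} {w K : V n → V n} (D : Dif Ω w K) {A₁ A₂ : Cn n N}
    {U : MC n N} (hU : SmC U)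
    (h : ∀ i x, pfo A₂ K i x = (U x)ᴴ * A₁ i x * U x + (U x)ᴴ * pdm i U x) (i : Fin n) (x : V n) :
    A₂ i x = (U (x + w x))ᴴ * pb w A₁ i x * U (x + w x) +
      (U (x + w x))ᴴ * pdm i (fun x => U (x + w x)) x := by
  rw [pfo_back738 D A₂ i x, pdm_comp738 D.sw hU i x]
  unfold pb
  simp only [h, smul_add, Finset.sum_add_distrib, Finset.mul_sum, Finset.sum_mul,
    Matrix.mul_smul, Matrix.smul_mul]

theorem tsupp738 {f : V n → ℂ} (h : ∀ x ∉ core n, f x = 0) : tsupport f ⊆ cube n := by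
  refine Subset.trans ?_ H129.core_subset_cube
  refine closure_minimal ?_ H129.isCompact_core.isClosed
  intro x hx
  by_contra hc
  exact hx (h x hc)

theorem bls_subset_bal738 : bls n ⊆ bal n := by
  intro x hx
  have h1 : ∑ j, (x j - 1 / 2) ^ 2 ≤ 1 / 64 := hx
  show ∑ j, (x j - 1 / 2) ^ 2 ≤ 1 / 16
  linarith

/-- **(U_RIG) joint rigidity from the rows** -/
theorem rig738 (hA3 : RowA3) (hN1 : RowNORM1) (hG2 : RowG2U) (hCOO : RowCOO) (hPHI : RowPHI)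
    (hPU : RowPUU) (hSMK : RowSMK)
    (hCORE : ∀ n N : ℕ, 2 ≤ n → 1 ≤ N → ∃ (k : ℕ) (ε : ℝ), 0 < ε ∧ CoreU n N k ε) :
    ∀ n N : ℕ, 2 ≤ n → 1 ≤ N → ∃ (k : ℕ) (ε : ℝ), 0 < ε ∧ RigU n N k ε := by
  intro n N hn hN
  obtain ⟨k, εc, hεc, hcore⟩ := hCORE n N hn hN
  obtain ⟨CS, εS, hCS, hεS, hsmk⟩ := hSMK n N k
  obtain ⟨CP, εP, hCP, hεP, hphi⟩ := hPHI n (k + 1)
  obtain ⟨δN, hδN, hnorm1⟩ := hN1 n (k + 1) (εc / CP) (by positivity)
  obtain ⟨CC, εC, hCC, hεC, hcoo⟩ := hCOO n N (k + 3) hN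
  obtain ⟨CG, εG, hCG, hεG, hg2⟩ := hG2 n N (k + 2) (by omega)
  obtain ⟨CB, hCB, hB⟩ := hA3 n (k + 2)
  -- the size for the composition
  obtain ⟨δS, hδS, hlS⟩ := ex_small738 [(1, εS), (CS, εc)] (by
    intro p hp
    simp only [List.mem_cons, List.not_mem_nil, or_false] at hp
    rcases hp with rfl | rfl
    · exact hεS
    · exact hεc)
  have hS1 : δS ≤ εS := by simpa using hlS (1, εS) (by simp)
  have hS2 : CS * δS ≤ εc := hlS (CS, εc) (by simp)
  -- the size of the coefficients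
  obtain ⟨δ2, hδ2, hl2⟩ := ex_small738 [(1, εG), (CG, εC), (CC * CG, εP), (CP * (CC * CG), δS),
    (CG, δS), (CG, εc), (CP * (CC * CG), δN)] (by
    intro p hp
    simp only [List.mem_cons, List.not_mem_nil, or_false] at hp
    rcases hp with rfl | rfl | rfl | rfl | rfl | rfl | rfl
    · exact hεG
    · exact hεC
    · exact hεP
    · exact hδS
    · exact hδS
    · exact hεc
    · exact hδN)
  have h1 : δ2 ≤ εG := by simpa using hl2 (1, εG) (by simp)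
  have h2 : CG * δ2 ≤ εC := hl2 (CG, εC) (by simp)
  have h3 : CC * (CG * δ2) ≤ εP := by
    rw [← mul_assoc]; exact hl2 (CC * CG, εP) (by simp)
  have h4 : CP * (CC * (CG * δ2)) ≤ δS := by
    have := hl2 (CP * (CC * CG), δS) (by simp)
    simpa only [mul_assoc] using this
  have h5 : CG * δ2 ≤ δS := hl2 (CG, δS) (by simp)
  have h6 : CG * δ2 ≤ εc := hl2 (CG, εc) (by simp)
  have h7 : CP * (CC * (CG * δ2)) ≤ δN := by
    have := hl2 (CP * (CC * CG), δN) (by simp)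
    simpa only [mul_assoc] using this
  obtain ⟨B, hB0, hlB⟩ := ex_small738 [(CB, δ2), (1, δS), (1, δN), (1, εc)] (by
    intro p hp
    simp only [List.mem_cons, List.not_mem_nil, or_false] at hp
    rcases hp with rfl | rfl | rfl | rfl
    · exact hδ2
    · exact hδS
    · exact hδN
    · exact hεc)
  have hB1 : CB * B ≤ δ2 := hlB (CB, δ2) (by simp)
  have hB2 : B ≤ δS := by simpa using hlB (1, δS) (by simp)
  have hB3 : B ≤ δN := by simpa using hlB (1, δN) (by simp)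
  have hB4 : B ≤ εc := by simpa using hlB (1, εc) (by simp)
  refine ⟨k + 2 + n + 1, B, hB0, ?_⟩
  intro Ω hΩ hreg hΩb σ s hσs hσpos hσ1 hs2 hy2 hoff2 hσcl hscl A₁ A₂ hA₁ hA₂ hA₁0 hA₂off hA₁cl
    hA₂cl hor
  have hΩc : Ω ⊆ core n := hΩb.trans (bls_subset_bal738.trans bal_subset_core442)
  have hΩcube : Ω ⊆ cube n := hΩc.trans H129.core_subset_cube
  have hs1 : SmM (sc σ) := smM_sc442 hσs
  have hy1 : ∀ x, (sc σ x).IsSymm := symm_sc442 σ
  have hone1 : ∀ x ∉ core n, sc σ x = 1 := by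
    intro x hx
    have h1 : σ x = 1 := hσ1 x fun h => hx (bal_subset_core442 h)
    unfold sc
    rw [h1, one_smul]
  have hone2 : ∀ x ∉ core n, s x = 1 := fun x hx => by
    rw [hoff2 x fun h => hx (hΩc h)]; exact hone1 x hx
  have hz1 : ∀ i, ∀ x ∉ core n, A₁ i x = 0 := fun i x hx =>
    hA₁0 i x fun h => hx (bal_subset_core442 h)
  have hz2 : ∀ i, ∀ x ∉ core n, A₂ i x = 0 := fun i x hx => by
    rw [hA₂off i x fun h => hx (hΩc h)]; exact hz1 i x hx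
  have hcl1 : ∀ i j, Cl (k + 2 + n + 1) B
      (fun x => sc σ x i j - (1 : Matrix (Fin n) (Fin n) ℝ) i j) := cl_sc442 hB0.le hσcl
  have hentc : ∀ (s : MF n), SmM s → (∀ x ∉ core n, s x = 1) →
      (∀ i j, Cl (k + 2 + n + 1) B
        (fun x => s x i j - (1 : Matrix (Fin n) (Fin n) ℝ) i j)) →
      ∀ i j, nm (k + 2) (cf 0 (ent s i j)) ≤ δ2 := by
    intro s hs hs1 hcl i j
    have h1 := (hB (ent s i j) (H129.smooth_ent hs i j)
      ((H129.tsupport_ent subset_rfl hs1 i j).trans H129.core_subset_cube) 0 (by simp)).2.2 B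
      (H442.cl_ent442 hs i j (hcl i j))
    exact h1.trans hB1
  have hcon : ∀ (A : Cn n N), SmU A → (∀ i, ∀ x ∉ core n, A i x = 0) →
      (∀ i, ClC (k + 2 + n + 1) B (A i)) →
      ∀ i a b, nm (k + 2) (cf 0 (fun x => A i x a b)) ≤ δ2 := by
    intro A hA hA0 hcl i a b
    have h1 := (hB (fun x => A i x a b) (hA.1 i a b)
      (tsupp738 fun x hx => by rw [hA0 i x hx]; rfl) 0 (by simp)).2.2 B (hcl i a b)
    exact h1.trans hB1
  obtain ⟨F₁, F₂, X₁, X₂, sF₁, sF₂, sX₁, sX₂, oF, oX, cF₁, cF₂, cX₁, cX₂, eF₁, eF₂, eX₁, eX₂⟩ :=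
    hg2 Ω hΩ hreg hΩc (sc σ) s hs1 hs2 hy1 hy2 hone1 hoff2 A₁ A₂ hA₁ hA₂ hz1 hA₂off hor δ2 hδ2.le
      h1 (hentc _ hs1 hone1 hcl1) (hentc _ hs2 hone2 hscl) (hcon A₁ hA₁ hz1 hA₁cl)
      (hcon A₂ hA₂ hz2 hA₂cl)
  have hgd : 0 ≤ CG * δ2 := by positivity
  obtain ⟨w₁, w₂, sw₁, sw₂, ow, cw₁, cw₂, tw₁, tw₂⟩ := hcoo Ω hΩc F₁ F₂ X₁ X₂ sF₁ sF₂ sX₁ sX₂ oF
    oX (CG * δ2) hgd h2 cF₁ cF₂ cX₁ cX₂
  obtain ⟨w, K, D, cw, hwe, hcomp⟩ := hphi Ω w₁ w₂ sw₁ sw₂ ow (CC * (CG * δ2)) (by positivity) h3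
    cw₁ cw₂
  obtain ⟨p1, p2, p3, p4, p5, p6, p7⟩ := hPU Ω hΩ hΩc hreg (sc σ) s hs1 hs2 hy1 hy2 hoff2 A₁ A₂
    hA₁ hA₂ hA₂off w K D
  -- the push-forward of the tensor is small
  have hn1 := hnorm1 Ω s w K CP hs2 D hcomp
    (fun i j => H442.cl_le442 (hscl i j) (by omega) hB3)
    (H442.cl_le442 cw le_rfl h7)
  have hps : ∀ i j, Cl k εc
      (fun x => psh s w K x i j - (1 : Matrix (Fin n) (Fin n) ℝ) i j) := by
    intro i j
    refine H442.cl_le442 (hn1 i j) (by omega) (le_of_eq ?_)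
    field_simp
  -- the composed data
  obtain ⟨q1, q2, q3⟩ := hsmk Ω w K D δS hδS.le hS1 (H442.cl_le442 cw le_rfl h4)
  have hle : ∀ {m : ℕ} {a b : ℝ} {P : MC n N}, ClC m a P → k ≤ m → a ≤ b → ClC k b P :=
    fun h hm hab a b => H442.cl_le442 (h a b) hm hab
  have cA : ∀ i, ClC k εc (pfo A₂ K i) := fun i => by
    have h8 := q1 A₂ hA₂ (fun i => hle (hA₂cl i) (by omega) hB2) i
    exact hle h8 le_rfl hS2
  have cF : ClC k εc (fun y => F₂ (K y) - 1) :=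
    hle (q2 F₂ sF₂ (hle cF₂ (by omega) h5)) le_rfl hS2
  have cX : ∀ a, ClC k εc (fun y => X₂ a (K y) - (y a : ℂ) • 1) := fun a =>
    hle (q3 (X₂ a) a (sX₂ a) (hle (cX₂ a) (by omega) h5)) le_rfl hS2
  obtain ⟨r1, U, hU1, hU2, hU3, hU4⟩ := hcore Ω hΩ hreg hΩb σ (psh s w K) hσs hσpos p1 p2 p3
    (H442.cl_le442 hσcl (by omega) hB4) hps A₁ (pfo A₂ K) hA₁ p4 p5
    (fun i => hle (hA₁cl i) (by omega) hB4) cA F₁ (fun y => F₂ (K y)) X₁ (fun a y => X₂ a (K y))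
    sF₁ (p7 F₂ sF₂).1 sX₁ (fun a => (p7 (X₂ a) (sX₂ a)).1)
    (fun x hx => by show F₂ (K x) = F₁ x; rw [K_off D hx, oF x hx])
    (fun a x hx => by show X₂ a (K x) = X₁ a x; rw [K_off D hx, oX a x hx])
    (hle cF₁ (by omega) h6) cF (fun a => hle (cX₁ a) (by omega) h6) cX
    (fun x hx => eF₁ x (hΩcube hx)) ((p7 F₂ sF₂).2 fun x hx => eF₂ x (hΩcube hx))
    (fun a x hx => eX₁ a x (hΩcube hx))
    (fun a => (p7 (X₂ a) (sX₂ a)).2 fun x hx => eX₂ a x (hΩcube hx))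
    (fun x hx a => by
      have hKx := K_mem D hx
      have t2 := tw₂ (K x) (hΩc hKx) a
      have t1 := tw₁ x (hΩc hx) a
      show (((F₂ (K x))⁻¹ * X₂ a (K x)).trace).re = (((F₁ x)⁻¹ * X₁ a x).trace).re
      rw [← t2, ← t1]
      have t3 := congrFun (hwe (K x)) a
      rw [D.r x] at t3
      have t4 : x a + w₁ x a = K x a + w₂ (K x) a := t3
      rw [t4]) (p6 hor)
  refine ⟨w, K, D, r1, fun x => U (x + w x), ?_, fun x => hU2 _, fun x hx => ?_, fun i x =>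
    gauge_back738 D hU1 hU4 i x⟩
  · intro a b
    exact (hU1 a b).comp (contDiff_id.add D.sw)
  · show U (x + w x) = 1
    rw [D.z x hx, add_zero, hU3 x hx]

end Vale.Agent.P088.LR.U
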