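import Vale.Agent.P088.H198.K.Defs
import Vale.Agent.P088.H72.X.FinY
import Vale.Agent.P088.H738.URig

/-!
# P088, theorem JB (joint local uniqueness on a smooth domain): the assembly (row K_FIN)
-/

open MeasureTheory Set
open scoped ContDiff Matrix

noncomputable section

namespace Vale.Agent.P088.LR.K.H738

open Vale.Agent.P088.LR Vale.Agent.P088.LR.B Vale.Agent.P088.LR.CF Vale.Agent.P088.LR.U
  Vale.Agent.P088.LR.H158 Vale.Agent.P088.LR.H72 Vale.Agent.P088.LR.BX Vale.Agent.P088.LR.K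

variable {n N : ℕ}

/-- `L_(s, A)` only sees the values near the point. -/
theorem lav_congr {Ω : Set (V n)} (hO : IsOpen Ω) {s t : MF n} {A' A : Cn n N}
    (h : ∀ x ∈ Ω, s x = t x) (hA : ∀ i, ∀ x ∈ Ω, A' i x = A i x) (u : V n → Fin N → ℂ) {x : V n}
    (hx : x ∈ Ω) : lav s A' u x = lav t A u x := by
  have h1 : ∀ i, ∀ y ∈ Ω, cd A' i u y = cd A i u y := by
    intro i y hy
    unfold cd
    rw [hA i y hy]
  unfold lav
  refine Finset.sum_congr rfl fun i _ => ?_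
  have h2 : ∀ y ∈ Ω, (fun y => ∑ j, (s y i j : ℂ) • cd A' j u y) y =
      (fun y => ∑ j, (t y i j : ℂ) • cd A j u y) y := by
    intro y hy
    refine Finset.sum_congr rfl fun j _ => ?_
    rw [h y hy, h1 j y hy]
  have h3 := H158.pd_congr hO h2 hx i
  have h4 := h2 x hx
  simp only at h4
  show pd i (fun y => ∑ j, (s y i j : ℂ) • cd A' j u y) x +
    A' i x *ᵥ (∑ j, (s x i j : ℂ) • cd A' j u x) = pd i (fun y => ∑ j, (t y i j : ℂ) • cd A j u y) x
      + A i x *ᵥ (∑ j, (t x i j : ℂ) • cd A j u x)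
  rw [h3, h4, hA i x hx]

theorem ea_congr {Ω : Set (V n)} (hO : IsOpen Ω) {s t : MF n} {A' A : Cn n N}
    (h : ∀ x ∈ Ω, s x = t x) (hA : ∀ i, ∀ x ∈ Ω, A' i x = A i x) (u v : V n → Fin N → ℂ) :
    ea Ω s A' u v = ea Ω t A u v := by
  unfold ea
  refine setIntegral_congr_fun hO.measurableSet fun x hx => ?_
  refine Finset.sum_congr rfl fun i _ => Finset.sum_congr rfl fun j _ => ?_
  have h1 : ∀ i, ∀ w : V n → Fin N → ℂ, cd A' i w x = cd A i w x := by
    intro i w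
    unfold cd
    rw [hA i x hx]
  rw [h x hx, h1, h1]

theorem orU_congr {Ω : Set (V n)} (hO : IsOpen Ω) {s₁ s t : MF n} {A₁ A' A : Cn n N}
    (h : ∀ x ∈ Ω, s x = t x) (hA : ∀ i, ∀ x ∈ Ω, A' i x = A i x) (hS : OrU Ω s₁ A₁ t A) :
    OrU Ω s₁ A₁ s A' := by
  intro u v hu hv hu0 hv0
  rw [ea_congr hO h hA u v]
  exact hS u v hu hv hu0 fun x hx => by rw [← lav_congr hO h hA v hx]; exact hv0 x hx

/-- The pointwise gauge computation. -/
theorem gauge_pt {Ω : Set (V n)} {w K : V n → V n} (D : Dif Ω w K) {A₁ A₂ : Cn n N}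
    {U : MC n N} (hU : SmC U) (x : V n)
    (h : ∀ i, pfo A₂ K i (x + w x) = (U (x + w x))ᴴ * A₁ i (x + w x) * U (x + w x) +
      (U (x + w x))ᴴ * pdm i U (x + w x)) (i : Fin n) :
    A₂ i x = (U (x + w x))ᴴ * pb w A₁ i x * U (x + w x) +
      (U (x + w x))ᴴ * pdm i (fun x => U (x + w x)) x := by
  rw [pfo_back738 D A₂ i x, pdm_comp738 D.sw hU i x]
  unfold pb
  simp only [h, smul_add, Finset.sum_add_distrib, Finset.mul_sum, Finset.sum_mul,
    Matrix.mul_smul, Matrix.smul_mul]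

theorem pb_pb {w K w' : V n → V n} {Ω : Set (V n)} (D : Dif Ω w K) (hw' : ContDiff ℝ ∞ w')
    (A : Cn n N) (i : Fin n) (x : V n) :
    pb w (pb w' A) i x = pbF (fun x => (x + w x) + w' (x + w x)) A i x := by
  unfold pb pbF
  simp only [Finset.smul_sum, smul_smul]
  rw [Finset.sum_comm]
  refine Finset.sum_congr rfl fun l _ => ?_
  rw [← Finset.sum_smul]
  congr 1
  rw [Jm_comp D.sw hw' x, Matrix.mul_apply]
  push_cast
  exact Finset.sum_congr rfl fun j _ => mul_comm _ _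

/-- Two gauge transforms. -/
theorem gauge_two {A B : Cn n N} {U U' : MC n N} (sU : SmC U) (sU' : SmC U')
    (uU : ∀ x, (U x)ᴴ * U x = 1) (x : V n) (vU : (U' x)ᴴ * U' x = 1) (i : Fin n)
    (h : (U x)ᴴ * B i x * U x + (U x)ᴴ * pdm i U x =
      (U' x)ᴴ * A i x * U' x + (U' x)ᴴ * pdm i U' x) :
    B i x = (U' x * (U x)ᴴ)ᴴ * A i x * (U' x * (U x)ᴴ) +
      (U' x * (U x)ᴴ)ᴴ * pdm i (fun x => U' x * (U x)ᴴ) x := by
  have uU' : ∀ x, U x * (U x)ᴴ = 1 := fun x => mul_eq_one_comm.1 (uU x)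
  have h0 : pdm i (fun x => U x * (U x)ᴴ) x = 0 := by
    have : (fun x => U x * (U x)ᴴ) = fun _ => 1 := funext uU'
    rw [this]
    exact pdm_const 1 x i
  rw [pdm_mul sU (SmC_star sU), pdm_star sU] at h0
  have h1 : B i x = U x * ((U x)ᴴ * B i x * U x) * (U x)ᴴ := by
    calc B i x = (U x * (U x)ᴴ) * B i x * (U x * (U x)ᴴ) := by rw [uU' x]; simp
      _ = _ := by simp only [Matrix.mul_assoc]
  have h2 : (U x)ᴴ * B i x * U x = (U' x)ᴴ * A i x * U' x + (U' x)ᴴ * pdm i U' x -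
      (U x)ᴴ * pdm i U x := by
    rw [← h]; simp
  have h3 : U x * (pdm i U x)ᴴ = -(pdm i U x * (U x)ᴴ) := by
    rw [eq_neg_iff_add_eq_zero, add_comm]; exact h0
  rw [h1, h2, pdm_mul sU' (SmC_star sU), pdm_star sU, Matrix.conjTranspose_mul,
    Matrix.conjTranspose_conjTranspose]
  have h4 : U x * ((U x)ᴴ * pdm i U x) * (U x)ᴴ = pdm i U x * (U x)ᴴ := by
    rw [← Matrix.mul_assoc, uU' x, Matrix.one_mul]
  have h5 : U x * (U' x)ᴴ * (U' x * (pdm i U x)ᴴ) = U x * (pdm i U x)ᴴ := by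
    calc U x * (U' x)ᴴ * (U' x * (pdm i U x)ᴴ)
        = U x * ((U' x)ᴴ * U' x) * (pdm i U x)ᴴ := by simp only [Matrix.mul_assoc]
      _ = _ := by rw [vU, Matrix.mul_one]
  rw [Matrix.mul_sub, Matrix.sub_mul, h4, Matrix.mul_add, Matrix.add_mul, Matrix.mul_add, h5, h3]
  simp only [Matrix.mul_assoc]
  abel

theorem clC_le {k l : ℕ} {a b : ℝ} {P : MC n N} (h : ClC k a P) (hk : l ≤ k) (hab : a ≤ b) :
    ClC l b P := fun α β => H442.cl_le442 (h α β) hk hab

/-- sums -/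
theorem cl_addF {k : ℕ} {a b : ℝ} {F : Type*} [NormedAddCommGroup F] [NormedSpace ℝ F]
    {f g h : V n → F} (hf : ContDiff ℝ ∞ f) (hg : ContDiff ℝ ∞ g) (h1 : Cl k a f)
    (h2 : Cl k b g) (e : ∀ x, h x = f x + g x) : Cl k (a + b) h := by
  intro l hl x
  have e1 : h = f + g := funext e
  rw [e1, iteratedFDeriv_add_apply ((hf.of_le (by exact_mod_cast le_top)).contDiffAt)
      ((hg.of_le (by exact_mod_cast le_top)).contDiffAt)]
  exact (norm_add_le _ _).trans (add_le_add (h1 l hl x) (h2 l hl x))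

theorem cl_subF {k : ℕ} {a b : ℝ} {F : Type*} [NormedAddCommGroup F] [NormedSpace ℝ F]
    {f g h : V n → F} (hf : ContDiff ℝ ∞ f) (hg : ContDiff ℝ ∞ g) (h1 : Cl k a f)
    (h2 : Cl k b g) (e : ∀ x, h x = f x - g x) : Cl k (a + b) h := by
  intro l hl x
  have e1 : h = fun x => f x - g x := funext e
  have e2 : iteratedFDeriv ℝ l (fun x => f x - g x) x =
      iteratedFDeriv ℝ l f x - iteratedFDeriv ℝ l g x :=
    iteratedFDeriv_sub_apply ((hf.of_le (by exact_mod_cast le_top)).contDiffAt)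
      ((hg.of_le (by exact_mod_cast le_top)).contDiffAt)
  rw [e1, e2]
  exact (norm_sub_le _ _).trans (add_le_add (h1 l hl x) (h2 l hl x))

/-- **(K_FIN) The assembly.** -/
theorem finK (hT : RowTOPO) (hB : RowBOREL) (hM : BX.RowMAP) (hE : RowEXT) (hEC : K.RowEXC)
    (hMP : K.RowMP) (hTG : K.RowTG) (hGA : K.RowGA) (hGS : K.RowGS) (hSMK : U.RowSMK)
    (hI : K.RowINF)
    (hR : ∀ n N : ℕ, 3 ≤ n → 1 ≤ N → ∃ (k : ℕ) (ε : ℝ), 0 < ε ∧ U.RigU n N k ε) :
    K.RowFIN := by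
  intro n N hn hN ρ hρ hρb
  obtain ⟨hO, hOc, hfr, hcl, hic, hde⟩ := hT ρ hρ
  have hOb : Om ρ ⊆ bls n := by
    intro x hx
    by_contra h
    have h1 : 0 < ρ x := hx
    rw [hρb x h] at h1
    linarith
  have hbd : Bornology.IsBounded (Om ρ) := H833.bounded_core.subset hOc
  obtain ⟨kr, εr, hεr, hR⟩ := hR n N hn hN
  obtain ⟨kI, εI, hεI, hI⟩ := hI N ρ hn hN hρ
  obtain ⟨k0, hk0⟩ : ∃ k0, k0 = max kr kI := ⟨_, rfl⟩
  have hk0r : kr ≤ k0 := hk0 ▸ le_max_left _ _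
  have hk0I : kI ≤ k0 := hk0 ▸ le_max_right _ _
  obtain ⟨η, hη⟩ : ∃ η : ℝ, η = min (εr / 4) εI := ⟨_, rfl⟩
  have hηp : 0 < η := hη ▸ lt_min (by positivity) hεI
  have hη1 : η ≤ εr / 4 := hη ▸ min_le_left _ _
  have hη2 : η ≤ εI := hη ▸ min_le_right _ _
  obtain ⟨δG, hδG, hGS⟩ := hGS n N k0 η hηp
  obtain ⟨KT, δT, hδT, hTG⟩ := hTG N ρ hρ (k0 + 1) δG hδG
  obtain ⟨k1, hk1⟩ : ∃ k1, k1 = max KT k0 := ⟨_, rfl⟩
  have hk1T : KT ≤ k1 := hk1 ▸ le_max_left _ _
  have hk10 : k0 ≤ k1 := hk1 ▸ le_max_right _ _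
  obtain ⟨CS, εS, hCS, hεS, hSMK⟩ := hSMK n N k1
  obtain ⟨δS, hδS, hlS⟩ := ex_small738 [(1, εS), (CS, δT), (CS, δG)] (by
    intro p hp
    simp only [List.mem_cons, List.not_mem_nil, or_false] at hp
    rcases hp with rfl | rfl | rfl
    · exact hεS
    · exact hδT
    · exact hδG)
  have hS1 : δS ≤ εS := by simpa using hlS (1, εS) (by simp)
  have hS2 : CS * δS ≤ δT := hlS (CS, δT) (by simp)
  have hS3 : CS * δS ≤ δG := hlS (CS, δG) (by simp)
  obtain ⟨CP, εP, hCP, hεP, hph⟩ := H833.phi n (k1 + 1)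
  obtain ⟨δN, hδN, hN1⟩ := norm1 n (k1 + 1) (η / CP) (by positivity)
  obtain ⟨δ3, hδ3, hl3⟩ := ex_small738 [(1, εP), (CP, δN), (CP, 1 / 2), (CP, δS), (1, 1 / 2)] (by
    intro p hp
    simp only [List.mem_cons, List.not_mem_nil, or_false] at hp
    rcases hp with rfl | rfl | rfl | rfl | rfl
    · exact hεP
    · exact hδN
    · norm_num
    · exact hδS
    · norm_num)
  have h31 : δ3 ≤ εP := by simpa using hl3 (1, εP) (by simp)
  have h32 : CP * δ3 ≤ δN := hl3 (CP, δN) (by simp)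
  have h33 : CP * δ3 ≤ 1 / 2 := hl3 (CP, 1 / 2) (by simp)
  have h34 : CP * δ3 ≤ δS := hl3 (CP, δS) (by simp)
  have h35 : δ3 ≤ 1 / 2 := by simpa using hl3 (1, 1 / 2) (by simp)
  obtain ⟨Kb, δ4, hδ4, hB⟩ := hB ρ hρ (k1 + 1 + 2) δ3 hδ3
  obtain ⟨δ, hδ, hl⟩ := ex_small738 [(1, δ4), (1, δN), (1, δS), (1, η), (1, δT), (1, εr)] (by
    intro p hp
    simp only [List.mem_cons, List.not_mem_nil, or_false] at hp
    rcases hp with rfl | rfl | rfl | rfl | rfl | rfl
    · exact hδ4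
    · exact hδN
    · exact hδS
    · exact hηp
    · exact hδT
    · exact hεr)
  have g1 : δ ≤ δ4 := by simpa using hl (1, δ4) (by simp)
  have g2 : δ ≤ δN := by simpa using hl (1, δN) (by simp)
  have g3 : δ ≤ δS := by simpa using hl (1, δS) (by simp)
  have g4 : δ ≤ η := by simpa using hl (1, η) (by simp)
  have g5 : δ ≤ δT := by simpa using hl (1, δT) (by simp)
  have g6 : δ ≤ εr := by simpa using hl (1, εr) (by simp)
  refine ⟨Kb + (k1 + 1), δ, hδ, fun σ hσ hσ1 s hs hsp A₁ A₂ sA₁ sA₂ hA₁0 hS hD => ?_⟩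
  obtain ⟨hS1', hS2', hS3', hS4'⟩ := hS
  have i0 : Fin n := ⟨0, by omega⟩
  have hσcl : Cl (Kb + (k1 + 1)) δ (fun x => σ x - 1) := by
    have h := hS1' i0 i0
    have e : (fun x => sc σ x i0 i0 - dl i0 i0) = fun x => σ x - 1 := by
      funext x; simp [sc]
    rwa [e] at h
  have hpsd : ∀ x, (s x).PosSemidef := fun x => (hsp x).posSemidef
  have hsym : ∀ x, (s x).IsSymm := fun x => by
    have h : (s x)ᴴ = s x := (hsp x).1
    rwa [Matrix.conjTranspose_eq_transpose_of_trivial] at h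
  have hscM : SmM (sc σ) := smM_sc442 hσ.1
  have hscS : ∀ x, (sc σ x).IsSymm := symm_sc442 σ
  -- the two coordinate systems
  obtain ⟨w₁, hw₁, hwcl₁, hw0₁, hwn₁, hwd₁⟩ := hB (sc σ) hscM hscS fun i j =>
    H442.cl_le442 (hS1' i j) (by omega) g1
  obtain ⟨w₂, hw₂, hwcl₂, hw0₂, hwn₂, hwd₂⟩ := hB s hs hsym fun i j =>
    H442.cl_le442 (hS2' i j) (by omega) g1
  obtain ⟨w, K, D0, hwcl, hwe, hcomp⟩ := hph {x | ρ x ≠ 0} w₁ w₂ hw₁ hw₂
    (fun x hx => by
      have hx0 : ρ x = 0 := not_not.1 hx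
      rw [hw0₁ x hx0, hw0₂ x hx0]) δ3 hδ3.le h31 hwcl₁ hwcl₂
  have D : Dif univ w K := dif_univ D0
  have hw0 : ∀ x, ρ x = 0 → w x = 0 := fun x hx => D0.z x fun h => h hx
  have hw1 : Cl 1 (1 / 2) w := H442.cl_le442 hwcl (by omega) h33
  obtain ⟨hside, hM⟩ := hM ρ hρ w K D hw0 hw1
  obtain ⟨ht, htp, -, htg⟩ := hM (sc σ) s hscM hs hpsd
  have htn : ∀ a x, ρ x = 0 → gr (psh s w K) (fun y => y a + w₁ y a) ρ x =
      gr (sc σ) (fun y => y a + w₁ y a) ρ x := fun a =>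
    (htg w₁ w₂ hw₁ hw₂ hwe a).1 fun x hx => by rw [hwn₂ a x hx, hwn₁ a x hx]
  have htd : ∀ a (m : ℕ), ∃ r > 0, ∃ E : V n → ℝ, ContDiff ℝ ∞ E ∧ ∀ x, |ρ x| < r →
      dr (psh s w K) (fun y => y a + w₁ y a) x = ρ x ^ m * E x := fun a m =>
    (htg w₁ w₂ hw₁ hw₂ hwe a).2 m (hwd₂ a m)
  have htcl := hN1 univ s w K CP hs D hcomp
    (fun i j => H442.cl_le442 (hS2' i j) (by omega) g2) (H442.cl_le442 hwcl le_rfl h32)
  have hCe : CP * (η / CP) = η := by field_simp
  rw [hCe] at htcl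
  obtain ⟨hMP1, hMP2⟩ := hMP ρ hρ w K D hw0 hside s A₂ hs hsym sA₂
  have hDt := hMP2 (sc σ) A₁ hscM hscS sA₁ hD
  have htsym : ∀ x, (psh s w K x).IsSymm := H158.isSymm_psh D hsym
  have hBcl : ∀ i, ClC k1 (CS * δS) (pfo A₂ K i) :=
    (hSMK univ w K D δS hδS.le hS1 (H442.cl_le442 hwcl (by omega) h34)).1 A₂ sA₂
      fun i => clC_le (hS4' i) (by omega) g3
  set t : MF n := psh s w K with htdef
  set B : Cn n N := pfo A₂ K with hBdef
  obtain ⟨U, sU, uU, hU0, hUcl, hUt⟩ := hTG A₁ B sA₁ hMP1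
    (fun i => clC_le (hS3' i) (by omega) g5) fun i => clC_le (hBcl i) hk1T hS2
  obtain ⟨sA, hGA⟩ := hGA t B U ht htsym hMP1 sU uU
  have hDA : Dat (Om ρ) (sc σ) A₁ t (gA U B) :=
    hGA (Om ρ) hO hbd (fun x hx => hU0 x (by rw [hfr] at hx; exact hx)) (sc σ) A₁ hscM hscS sA₁ hDt
  have hAcl : ∀ i, ClC k0 η (gA U B i) :=
    hGS U B sU hMP1 uU hUcl fun i => clC_le (hBcl i) hk10 hS3
  set A : Cn n N := gA U B with hAdef
  have hSma : Sma kI εI (sc σ) t A₁ A :=
    ⟨fun i j => H442.cl_le442 (hS1' i j) (by omega) (g4.trans hη2),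
      fun i j => H442.cl_le442 (htcl i j) (by omega) hη2,
      fun i => clC_le (hS3' i) (by omega) (g4.trans hη2), fun i => clC_le (hAcl i) hk0I hη2⟩
  have hflat := hI σ t A₁ A hσ ht htsym sA₁ sA hSma hDA w₁ hw₁
    (fun x _ => BY.det_ne hw₁ (H442.cl_le442 hwcl₁ (by omega) h35) x) htn htd hwd₁ hUt
  -- the extensions
  let s' : MF n := fun x => if 0 < ρ x then t x else sc σ x
  let A' : Cn n N := fun i x => if 0 < ρ x then A i x else A₁ i x
  have hhcl : ∀ i j, Cl k0 (2 * η) (fun x => t x i j - sc σ x i j) := by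
    intro i j
    have h := cl_subF (h := fun x => t x i j - sc σ x i j) ((ht i j).sub contDiff_const)
      ((hscM i j).sub contDiff_const)
      (H442.cl_le442 (htcl i j) (show k0 ≤ k1 + 1 by omega) le_rfl)
      (H442.cl_le442 (hS1' i j) (show k0 ≤ Kb + (k1 + 1) by omega) g4)
      (fun x => by ring)
    rwa [← two_mul] at h
  have he : ∀ i j, (fun x => s' x i j - sc σ x i j) =
      fun x => if 0 < ρ x then (t x i j - sc σ x i j) else 0 := by
    intro i j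
    funext x
    by_cases hx : 0 < ρ x
    · simp only [s', hx, if_true]
    · simp only [s', hx, if_false]
      exact sub_self _
  have hext : ∀ i j, ContDiff ℝ ∞ (fun x => s' x i j - sc σ x i j) ∧
      Cl k0 (2 * η) (fun x => s' x i j - sc σ x i j) := by
    intro i j
    have h := hE ρ hρ (fun x => t x i j - sc σ x i j) ((ht i j).sub (hscM i j)) fun m => by
      obtain ⟨⟨b, hb, hb'⟩, -⟩ := hflat m
      exact ⟨b i j, hb i j, fun x => hb' x i j⟩
    rw [he i j]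
    exact ⟨h.1, h.2 k0 _ (hhcl i j)⟩
  have hs'sm : SmM s' := by
    intro i j
    have h := (hext i j).1.add (hscM i j)
    have h2 : (fun x => s' x i j - sc σ x i j + sc σ x i j) = fun x => s' x i j := by
      funext x; ring
    rwa [h2] at h
  have hs'cl : ∀ i j, Cl kr εr (fun x => s' x i j - (1 : Matrix (Fin n) (Fin n) ℝ) i j) := by
    intro i j
    have h := cl_addF (h := fun x => s' x i j - (1 : Matrix (Fin n) (Fin n) ℝ) i j)
      (hext i j).1 ((hscM i j).sub contDiff_const) (H442.cl_le442 (hext i j).2 hk0r le_rfl)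
      (H442.cl_le442 (hS1' i j) (show kr ≤ Kb + (k1 + 1) by omega) g4) (fun x => by ring)
    exact H442.cl_le442 h le_rfl (by linarith)
  have hAh : ∀ i, SmC (fun x => A i x - A₁ i x) ∧ ClC k0 (2 * η) (fun x => A i x - A₁ i x) := by
    intro i
    refine ⟨fun a b => (sA.1 i a b).sub (sA₁.1 i a b), fun a b => ?_⟩
    have h := cl_subF (h := fun x => (A i x - A₁ i x) a b) (sA.1 i a b) (sA₁.1 i a b)
      (hAcl i a b) (H442.cl_le442 (hS3' i a b) (show k0 ≤ Kb + (k1 + 1) by omega) g4)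
      (fun x => by rw [Matrix.sub_apply])
    rwa [← two_mul] at h
  have hextA : ∀ i, SmC (fun x => if 0 < ρ x then A i x - A₁ i x else 0) ∧
      ClC k0 (2 * η) (fun x => if 0 < ρ x then A i x - A₁ i x else 0) := by
    intro i
    have h := hEC ρ hρ (fun x => A i x - A₁ i x) (hAh i).1 fun m => by
      obtain ⟨-, a, ha, ha'⟩ := hflat m
      exact ⟨a i, ha i, fun x => ha' i x⟩
    exact ⟨h.1, h.2 k0 _ (hAh i).2⟩
  have heA : ∀ i x, A' i x = (if 0 < ρ x then A i x - A₁ i x else 0) + A₁ i x := by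
    intro i x
    by_cases hx : 0 < ρ x
    · simp only [A', hx, if_true]; abel
    · simp only [A', hx, if_false]; simp
  have sA' : SmU A' := by
    refine ⟨fun i a b => ?_, fun i x => ?_⟩
    · have h := ((hextA i).1 a b).add (sA₁.1 i a b)
      have h2 : (fun x => (if 0 < ρ x then A i x - A₁ i x else 0) a b + A₁ i x a b) =
          fun x => A' i x a b := by
        funext x; rw [heA i x, Matrix.add_apply]
      rwa [h2] at h
    · by_cases hx : 0 < ρ x
      · simp only [A', hx, if_true]; exact sA.2 i x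
      · simp only [A', hx, if_false]; exact sA₁.2 i x
  have hA'cl : ∀ i, ClC kr εr (A' i) := by
    intro i a b
    have h := cl_addF (h := fun x => A' i x a b) ((hextA i).1 a b) (sA₁.1 i a b)
      (H442.cl_le442 ((hextA i).2 a b) hk0r le_rfl)
      (H442.cl_le442 (hS3' i a b) (show kr ≤ Kb + (k1 + 1) by omega) g4)
      (fun x => by rw [heA i x, Matrix.add_apply])
    exact H442.cl_le442 h le_rfl (by linarith)
  have hs'sym : ∀ x, (s' x).IsSymm := by
    intro x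
    by_cases hx : 0 < ρ x
    · simp only [s', hx, if_true]; exact htsym x
    · simp only [s', hx, if_false]; exact hscS x
  have hs'1 : ∀ x ∉ Om ρ, s' x = sc σ x := by
    intro x hx
    have hx' : ¬ 0 < ρ x := hx
    simp only [s', hx', if_false]
  have hs't : ∀ x ∈ Om ρ, s' x = t x := by
    intro x hx
    have hx' : 0 < ρ x := hx
    simp only [s', hx', if_true]
  have hA'1 : ∀ i, ∀ x ∉ Om ρ, A' i x = A₁ i x := by
    intro i x hx
    have hx' : ¬ 0 < ρ x := hx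
    simp only [A', hx', if_false]
  have hA't : ∀ i, ∀ x ∈ Om ρ, A' i x = A i x := by
    intro i x hx
    have hx' : 0 < ρ x := hx
    simp only [A', hx', if_true]
  have hor : OrU (Om ρ) (sc σ) A₁ s' A' := orU_congr hO hs't hA't hDA.1
  obtain ⟨w', K', D', h1, U', sU', uU', hU'1, hU'e⟩ := hR (Om ρ) hO hic hOb σ s' hσ.1 hσ.2 hσ1
    hs'sm hs'sym hs'1 (H442.cl_le442 hσcl (by omega) g6) hs'cl A₁ A' sA₁ sA' hA₁0 hA'1
    (fun i => clC_le (hS3' i) (by omega) g6) hA'cl hor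
  have hw : ContDiff ℝ ∞ w := D.sw
  have hΦ : ContDiff ℝ ∞ (fun x => (x + w x) + w' (x + w x)) :=
    (contDiff_id.add hw).add (D'.sw.comp (contDiff_id.add hw))
  have hin : ∀ y, y ∉ Om ρ → y + w' y = y := fun y hy => by rw [D'.z y hy, add_zero]
  have hinj : ∀ y z, y + w' y = z + w' z → y = z := fun y z h => by
    rw [← D'.l y, h, D'.l z]
  have hJ : ∀ x, Jm (fun x => (x + w x) + w' (x + w x)) x = jm w' (x + w x) * jm w x :=
    Jm_comp hw D'.sw
  have hV : SmC (fun x => U' x * (U x)ᴴ) := SmC_mul sU' (SmC_star sU)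
  have hn0 : ∀ x, ρ x = 0 → x ∉ Om ρ := fun x hx h => by
    have : 0 < ρ x := h
    rw [hx] at this
    exact lt_irrefl _ this
  refine ⟨fun x => (x + w x) + w' (x + w x), fun y => K (K' y),
    fun x => U' (x + w x) * (U (x + w x))ᴴ, hΦ, D.sK.comp D'.sK, ?_, ?_, ?_, ?_, ?_, ?_, ?_, ?_,
    ?_, ?_⟩
  · intro x
    show K (K' ((x + w x) + w' (x + w x))) = x
    rw [D'.l, D.l]
  · intro y
    show (K (K' y) + w (K (K' y))) + w' (K (K' y) + w (K (K' y))) = y
    rw [D.r, D'.r]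
  · intro x hx
    show (x + w x) + w' (x + w x) = x
    rw [hw0 x hx, add_zero]
    exact hin x (hn0 x hx)
  · intro x
    rw [← hside x]
    by_cases hy : x + w x ∈ Om ρ
    · refine ⟨fun _ => hy, fun _ => ?_⟩
      by_contra hc
      have h2 := hin _ hc
      have h3 := hinj _ _ h2
      exact hc (h3 ▸ hy)
    · show 0 < ρ ((x + w x) + w' (x + w x)) ↔ _
      rw [hin _ hy]
  · intro x
    rw [hJ, Matrix.det_mul]
    exact mul_pos (D'.dp _) (D.dp _)
  · set Φ : V n → V n := fun x => (x + w x) + w' (x + w x) with hΦd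
    have hdet0 : ∀ x, (Jm Φ x).det ≠ 0 := fun x => by
      rw [hJ, Matrix.det_mul]
      exact (mul_pos (D'.dp _) (D.dp _)).ne'
    have hdetc : Continuous fun x => (Jm Φ x).det := by
      have : Continuous fun x => Jm Φ x := continuous_matrix fun i j => continuous_Jm hΦ i j
      exact this.matrix_det
    have hclosed : IsClosed {x | (Jm Φ x).det⁻¹ • (Jm Φ x * s x * (Jm Φ x)ᵀ) = sc σ (Φ x)} := by
      have hset : {x | (Jm Φ x).det⁻¹ • (Jm Φ x * s x * (Jm Φ x)ᵀ) = sc σ (Φ x)} =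
          ⋂ i, ⋂ j, {x | ((Jm Φ x).det⁻¹ • (Jm Φ x * s x * (Jm Φ x)ᵀ)) i j = sc σ (Φ x) i j} := by
        ext x
        simp only [mem_ofPred_eq, mem_iInter]
        exact ⟨fun h i j => by rw [h], fun h => Matrix.ext h⟩
      rw [hset]
      refine isClosed_iInter fun i => isClosed_iInter fun j => isClosed_eq ?_
        ((hscM i j).continuous.comp hΦ.continuous)
      simp only [Matrix.smul_apply, smul_eq_mul, Matrix.mul_apply, Matrix.transpose_apply]
      refine (hdetc.inv₀ hdet0).mul ?_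
      exact continuous_finsetSum _ fun l _ => (continuous_finsetSum _ fun l' _ =>
        (continuous_Jm hΦ i l').mul (hs l' l).continuous).mul (continuous_Jm hΦ j l)
    have hsub : Om ρ ⊆ {x | (Jm Φ x).det⁻¹ • (Jm Φ x * s x * (Jm Φ x)ᵀ) = sc σ (Φ x)} := by
      intro x hx
      have hy : x + w x ∈ Om ρ := (hside x).2 hx
      show (Jm Φ x).det⁻¹ • (Jm Φ x * s x * (Jm Φ x)ᵀ) = sc σ (Φ x)
      rw [hJ]
      exact alg_pointX D D' x (hs't _ hy) (h1 _)
    intro x hx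
    have hx' : x ∈ closure (Om ρ) := by rw [hcl]; exact hx
    exact closure_minimal hsub hclosed hx'
  · intro a b
    exact (hV a b).comp (contDiff_id.add hw)
  · intro x
    rw [Matrix.conjTranspose_mul, Matrix.conjTranspose_conjTranspose, Matrix.mul_assoc,
      ← Matrix.mul_assoc (U' (x + w x))ᴴ, uU', Matrix.one_mul]
    exact mul_eq_one_comm.1 (uU _)
  · intro x hx
    have h2 : x + w x = x := by rw [hw0 x hx, add_zero]
    show U' (x + w x) * (U (x + w x))ᴴ = 1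
    rw [h2, hU'1 x (hn0 x hx), hU0 x hx, Matrix.conjTranspose_one, Matrix.mul_one]
  · intro i x hx
    have hy : x + w x ∈ Om ρ := (hside x).2 hx
    have h2 : ∀ i, pfo A₂ K i (x + w x) =
        (U' (x + w x) * (U (x + w x))ᴴ)ᴴ * pb w' A₁ i (x + w x) * (U' (x + w x) * (U (x + w x))ᴴ)
        + (U' (x + w x) * (U (x + w x))ᴴ)ᴴ * pdm i (fun x => U' x * (U x)ᴴ) (x + w x) := by
      intro i
      refine gauge_two sU sU' uU (x + w x) (uU' _) i ?_
      rw [← hU'e i (x + w x), hA't i _ hy]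
      rfl
    have h3 := gauge_pt D (U := fun x => U' x * (U x)ᴴ) hV x h2 i
    rw [← pb_pb D D'.sw A₁ i x]
    exact h3

end Vale.Agent.P088.LR.K.H738
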