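import Vale.Agent.P088.H738.KFin
import Vale.Agent.P088.H72.X.Map
import Vale.Agent.P088.H292.BExt
import Vale.Agent.P088.H873.BTopo
import Vale.Agent.P088.H641.BHad
import Vale.Agent.P088.H501.BorelRow
import Vale.Agent.P088.H599.J.All
import Vale.Agent.P088.H947.KGa
import Vale.Agent.P088.H378.KGs
import Vale.Agent.P088.H397.KInf

/-!
# P088, theorem JB: the assembly over the open rows
-/

open MeasureTheory Set
open scoped ContDiff Matrix

noncomputable section

namespace Vale.Agent.P088.LR.K.H738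

open Vale.Agent.P088.LR Vale.Agent.P088.LR.B Vale.Agent.P088.LR.CF Vale.Agent.P088.LR.U
  Vale.Agent.P088.LR.K

/-- Joint rigidity in the ball. -/
theorem rigU : ∀ n N : ℕ, 3 ≤ n → 1 ≤ N → ∃ (k : ℕ) (ε : ℝ), 0 < ε ∧ U.RigU n N k ε := by
  intro n N hn hN
  have hA1 : RowA1 := H501.rowA1
  have hA2 : RowA2 := H501.rowA2
  have hA3 : RowA3 := H776.rowA3
  have hE : RowESFU := H393.esf (CF.H393.cgm CF.H393.sym H501.rowA1 H501.rowA2 H776.rowA3
    (H884.a4 H501.rowA2 H776.rowA3) H102.neu) H501.rowA2 H776.rowA3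
  have hES : RowES2U := R952.rot (H925.intU hA3) hE
  have hABS : RowABSU := H599.abs hES hA2 hA3
  have hG2 : RowG2U := H27.rowG2U hA1 hA2 hA3 H102.neu
  have hCORE := H634.ucore H106.red H106.gau H159.smu H91.inv hABS H705.ufin hA3
  exact rig738 hA3 H72.norm1 hG2 H91.coo H833.phi H292.UP.puu H535.smk hCORE n N (by omega) hN

/-- The theorem in the ball over the open rows. -/
theorem fin_of (hEC : K.RowEXC) (hMP : K.RowMP) (hTG : K.RowTG) (hBD : K.RowBD) : K.RowFIN :=
  finK H873.topo H501B.rowBOREL BX.map H292.ext hEC hMP hTG H947.KG.ga H378.gs H535.smk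
    (H397.KI.kinf H641.rowHAD hBD H873.topo) rigU

end Vale.Agent.P088.LR.K.H738
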